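import Vale.Agent.Lib.P195.ExtLemmas

/-!
Gradings by projections, graded homomorphisms of a fixed degree and the numerical invariant `Lam`.
This file carries the definitions and the basic lemmas only.
-/

set_option linter.style.haveILetI false
set_option linter.unusedVariables false

open CategoryTheory Abelian

namespace Vale.Agent.Lib.P195G

universe u v

/-- A grading of the `k`-vector space `X` with finitely many degrees, as a family of orthogonal
projections summing to the identity. -/
structure Gr (k : Type v) (X : Type u) [Field k] [AddCommGroup X] [Module k X] where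
  proj : ℕ → X →ₗ[k] X
  top : ℕ
  proj_zero : ∀ e, top < e → proj e = 0
  proj_proj : ∀ e x, proj e (proj e x) = proj e x
  proj_ne : ∀ e e' x, e ≠ e' → proj e (proj e' x) = 0
  sum_proj : ∀ x, ∑ e ∈ Finset.range (top + 1), proj e x = x

variable {k : Type v} [Field k]

section Gr
variable {X : Type u} [AddCommGroup X] [Module k X]

/-- The homogeneous piece of degree `e`. -/
def Gr.piece (G : Gr k X) (e : ℕ) : Submodule k X := LinearMap.range (G.proj e)

lemma Gr.mem_piece_iff (G : Gr k X) {e : ℕ} {x : X} : x ∈ G.piece e ↔ G.proj e x = x := by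
  constructor
  · rintro ⟨y, rfl⟩
    exact G.proj_proj e y
  · intro h
    exact ⟨x, h⟩

/-- All degrees of `G` are at least `l`. -/
def Gr.LowGE (G : Gr k X) (l : ℕ) : Prop := ∀ e, e < l → G.proj e = 0

end Gr

variable {A : Type u} [Ring A] [Algebra k A]

/-- A connected grading of the algebra `A`: degree zero is `k`, and `top` is the exact top degree. -/
structure GrAlg (k : Type v) (A : Type u) [Field k] [Ring A] [Algebra k A] where
  gr : Gr k A
  one_mem : (1 : A) ∈ gr.piece 0
  mul_mem : ∀ i j a b, a ∈ gr.piece i → b ∈ gr.piece j → a * b ∈ gr.piece (i + j)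
  conn : ∀ a ∈ gr.piece 0, ∃ c : k, a = algebraMap k A c
  top_ne : gr.piece gr.top ≠ ⊥

/-- A grading of the `A`-module `X` compatible with the grading of `A`. -/
def IsMod (GA : GrAlg k A) {X : Type u} [AddCommGroup X] [Module A X] [Module k X]
    (G : Gr k X) : Prop :=
  ∀ i e (a : A) (x : X), a ∈ GA.gr.piece i → x ∈ G.piece e → a • x ∈ G.piece (i + e)

section Hom
variable {X N : Type u} [AddCommGroup X] [Module A X] [Module k X] [IsScalarTower k A X]
  [AddCommGroup N] [Module A N] [Module k N] [IsScalarTower k A N]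

/-- `A`-linear maps lowering degrees by `c`: the piece `X_e` goes to `N_(e-c)`, and to zero if
`e < c`. -/
def Hom (G : Gr k X) (H : Gr k N) (c : ℕ) : Submodule k (X →ₗ[A] N) where
  carrier := {u | ∀ e x, x ∈ G.piece e → (c ≤ e → u x ∈ H.piece (e - c)) ∧ (e < c → u x = 0)}
  zero_mem' := by
    intro e x _
    exact ⟨fun _ => Submodule.zero_mem _, fun _ => rfl⟩
  add_mem' := by
    intro a b ha hb e x hx
    refine ⟨fun h => ?_, fun h => ?_⟩
    · exact Submodule.add_mem _ ((ha e x hx).1 h) ((hb e x hx).1 h)
    · simp [(ha e x hx).2 h, (hb e x hx).2 h]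
  smul_mem' := by
    intro r a ha e x hx
    refine ⟨fun h => ?_, fun h => ?_⟩
    · simpa using Submodule.smul_mem _ r ((ha e x hx).1 h)
    · simp [(ha e x hx).2 h]

/-- The dimension of `Hom`. -/
noncomputable def hdim (G : Gr k X) (H : Gr k N) (c : ℕ) : ℕ :=
  Module.finrank k (Hom (A := A) G H c)

/-- The dimension of a piece. -/
noncomputable def pdim (G : Gr k X) (e : ℕ) : ℕ := Module.finrank k (G.piece e)

/-- The numerical invariant of the pair `(X, N)`:
`∑_c h_(s-c) dim Hom_c(X, N) - ∑_e dim X_e dim N_(e-s)` with `s` the top degree of `A`. -/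
noncomputable def Lam (GA : GrAlg k A) (G : Gr k X) (H : Gr k N) : ℤ :=
  ∑ c ∈ Finset.range (GA.gr.top + 1),
      (pdim GA.gr (GA.gr.top - c) : ℤ) * (hdim (A := A) G H c : ℤ)
    - ∑ e ∈ Finset.range (G.top + 1),
      (pdim G e : ℤ) * (if GA.gr.top ≤ e then (pdim H (e - GA.gr.top) : ℤ) else 0)

end Hom

end Vale.Agent.Lib.P195G
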