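import Vale.Agent.Lib.P195G.Basic

set_option linter.style.haveILetI false
set_option linter.unusedVariables false

open CategoryTheory Abelian

namespace Vale.Agent.Lib.P195G

universe u v

variable {k : Type v} [Field k] {A : Type u} [Ring A] [Algebra k A]

section general
variable {X : Type u} [AddCommGroup X] [Module k X]

lemma Gr.proj_of_mem (G : Gr k X) {d e : ℕ} {x : X} (hx : x ∈ G.piece d) :
    G.proj e x = if d = e then x else 0 := by
  have hx' := (G.mem_piece_iff).1 hx
  split_ifs with h
  · subst h; exact hx'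
  · rw [← hx']; exact G.proj_ne e d x (Ne.symm h)

lemma Gr.proj_mem (G : Gr k X) (e : ℕ) (x : X) : G.proj e x ∈ G.piece e := ⟨x, rfl⟩

/-- The decomposition of a graded space into its pieces. -/
noncomputable def Gr.equivPi (G : Gr k X) :
    X ≃ₗ[k] ((e : Fin (G.top + 1)) → G.piece (e : ℕ)) where
  toFun x e := ⟨G.proj e x, G.proj_mem e x⟩
  map_add' x y := by ext e; simp
  map_smul' c x := by ext e; simp
  invFun f := ∑ e, (f e : X)
  left_inv x := by
    have := G.sum_proj x
    rw [Finset.sum_range] at this
    simpa using this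
  right_inv f := by
    funext e
    apply Subtype.ext
    simp only [map_sum]
    rw [Finset.sum_eq_single e]
    · exact (G.mem_piece_iff).1 (f e).2
    · intro e' _ hne
      rw [G.proj_of_mem (f e').2, if_neg]
      exact fun h => hne (Fin.ext h)
    · simp

lemma Gr.exists_basis [FiniteDimensional k X] (G : Gr k X) :
    ∃ (m : ℕ) (B : Module.Basis (Fin m) k X) (deg : Fin m → ℕ), ∀ j, B j ∈ G.piece (deg j) := by
  classical
  let s : (e : Fin (G.top + 1)) → Module.Basis (Fin (Module.finrank k (G.piece (e : ℕ)))) k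
      (G.piece (e : ℕ)) := fun e => Module.finBasis k _
  let B₀ := (Pi.basis s).map G.equivPi.symm
  let eqv := Fintype.equivFin (Σ e : Fin (G.top + 1), Fin (Module.finrank k (G.piece (e : ℕ))))
  refine ⟨_, B₀.reindex eqv, fun j => ((eqv.symm j).1 : ℕ), fun j => ?_⟩
  show (B₀.reindex eqv) j ∈ G.piece ((eqv.symm j).1 : ℕ)
  rw [Module.Basis.reindex_apply]
  generalize eqv.symm j = ji
  rcases ji with ⟨e, i⟩
  simp only [B₀, Module.Basis.map_apply, Pi.basis_apply]
  have : G.equivPi.symm (Pi.single e (s e i)) = (s e i : X) := by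
    change ∑ e', ((Pi.single e (s e i) : (e : Fin (G.top + 1)) → G.piece (e : ℕ)) e' : X) = _
    rw [Finset.sum_eq_single e]
    · simp
    · intro e' _ hne
      simp [Pi.single_eq_of_ne hne]
    · simp
  rw [this]
  exact (s e i).2

end general

/-- The grading of a submodule stable under the projections. -/
def restrictGr {P : Type u} [AddCommGroup P] [Module A P] [Module k P] [IsScalarTower k A P]
    (GP : Gr k P) (K : Submodule A P) (hK : ∀ e y, y ∈ K → GP.proj e y ∈ K) : Gr k K where
  proj e :=
    { toFun := fun y => ⟨GP.proj e y, hK e y y.2⟩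
      map_add' := fun x y => Subtype.ext (by simp)
      map_smul' := fun c x => Subtype.ext (by simp) }
  top := GP.top
  proj_zero e he := by
    ext y
    simp [GP.proj_zero e he]
  proj_proj e x := Subtype.ext (GP.proj_proj e x)
  proj_ne e e' x h := Subtype.ext (GP.proj_ne e e' x h)
  sum_proj x := Subtype.ext (by
    have := GP.sum_proj x
    simpa using this)

lemma restrictGr_proj_coe {P : Type u} [AddCommGroup P] [Module A P] [Module k P]
    [IsScalarTower k A P] (GP : Gr k P) (K : Submodule A P)
    (hK : ∀ e y, y ∈ K → GP.proj e y ∈ K) (e : ℕ) (y : K) :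
    ((restrictGr GP K hK).proj e y : P) = GP.proj e y := rfl

/-- The grading of the free module `Fin m → A` with shifts `deg`. -/
def coverGr (GA : GrAlg k A) {m : ℕ} (deg : Fin m → ℕ) : Gr k (Fin m → A) where
  proj e := LinearMap.pi fun j =>
    if deg j ≤ e then GA.gr.proj (e - deg j) ∘ₗ LinearMap.proj j else 0
  top := (∑ j, deg j) + GA.gr.top
  proj_zero e he := by
    apply LinearMap.ext
    intro v
    funext j
    have hj : deg j ≤ ∑ j, deg j := Finset.single_le_sum (fun _ _ => Nat.zero_le _) (Finset.mem_univ j)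
    by_cases h : deg j ≤ e
    · have : GA.gr.top < e - deg j := by omega
      simp [h, GA.gr.proj_zero _ this]
    · simp [h]
  proj_proj e v := by
    funext j
    by_cases h : deg j ≤ e
    · simp [h, GA.gr.proj_proj]
    · simp [h]
  proj_ne e e' v hne := by
    funext j
    by_cases h : deg j ≤ e
    · by_cases h' : deg j ≤ e'
      · have : e - deg j ≠ e' - deg j := by omega
        simp [h, h', GA.gr.proj_ne _ _ _ this]
      · simp [h, h']
    · simp [h]
  sum_proj v := by
    funext j
    have hj : deg j ≤ ∑ j, deg j := Finset.single_le_sum (fun _ _ => Nat.zero_le _) (Finset.mem_univ j)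
    simp only [Finset.sum_apply, LinearMap.pi_apply]
    obtain ⟨d, hd⟩ : ∃ d, (∑ j, deg j) = deg j + d := ⟨_, (Nat.add_sub_cancel' hj).symm⟩
    have hsplit : (∑ j, deg j) + GA.gr.top + 1 = deg j + (d + GA.gr.top + 1) := by omega
    rw [hsplit, Finset.sum_range_add]
    rw [Finset.sum_eq_zero, zero_add]
    · have h1 : ∀ x : ℕ, (if deg j ≤ deg j + x then GA.gr.proj (deg j + x - deg j) ∘ₗ LinearMap.proj j
          else (0 : (Fin m → A) →ₗ[k] A)) v = GA.gr.proj x (v j) := by
        intro x
        simp
      simp only [h1]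
      rw [show d + GA.gr.top + 1 = (GA.gr.top + 1) + d by omega, Finset.sum_range_add,
        GA.gr.sum_proj]
      rw [Finset.sum_eq_zero, add_zero]
      intro x _
      rw [GA.gr.proj_zero _ (by omega)]
      rfl
    · intro x hx
      have : ¬ deg j ≤ x := by
        have := Finset.mem_range.1 hx
        omega
      simp [this]

@[simp] lemma coverGr_proj_apply (GA : GrAlg k A) {m : ℕ} (deg : Fin m → ℕ) (e : ℕ)
    (v : Fin m → A) (j : Fin m) :
    (coverGr GA deg).proj e v j = if deg j ≤ e then GA.gr.proj (e - deg j) (v j) else 0 := by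
  by_cases h : deg j ≤ e <;> simp [coverGr, h]

lemma mem_coverGr_piece (GA : GrAlg k A) {m : ℕ} (deg : Fin m → ℕ) (e : ℕ) (v : Fin m → A) :
    v ∈ (coverGr GA deg).piece e ↔
      ∀ j, (if deg j ≤ e then GA.gr.piece (e - deg j) else (⊥ : Submodule k A)).carrier (v j) := by
  rw [Gr.mem_piece_iff]
  constructor
  · intro h j
    have hj := congrFun h j
    rw [coverGr_proj_apply] at hj
    by_cases hd : deg j ≤ e
    · simp only [hd, if_true] at hj ⊢
      exact (GA.gr.mem_piece_iff).2 hj
    · simp only [hd, if_false] at hj ⊢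
      exact hj.symm
  · intro h
    funext j
    have hj := h j
    rw [coverGr_proj_apply]
    by_cases hd : deg j ≤ e
    · simp only [hd, if_true] at hj ⊢
      exact (GA.gr.mem_piece_iff).1 hj
    · simp only [hd, if_false] at hj ⊢
      exact (hj : v j = 0).symm


lemma coverGr_isMod (GA : GrAlg k A) {m : ℕ} (deg : Fin m → ℕ) : IsMod GA (coverGr GA deg) := by
  intro i e a v ha hv
  rw [Gr.mem_piece_iff]
  funext j
  have hv' := congrFun ((Gr.mem_piece_iff _).1 hv) j
  rw [coverGr_proj_apply] at hv'
  rw [coverGr_proj_apply, Pi.smul_apply, smul_eq_mul]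
  by_cases hd : deg j ≤ e
  · rw [if_pos hd] at hv'
    rw [if_pos (by omega)]
    have h1 : v j ∈ GA.gr.piece (e - deg j) := (GA.gr.mem_piece_iff).2 hv'
    have h2 := GA.mul_mem _ _ _ _ ha h1
    have h3 : i + (e - deg j) = i + e - deg j := by omega
    rw [h3] at h2
    exact (GA.gr.mem_piece_iff).1 h2
  · rw [if_neg hd] at hv'
    rw [← hv']
    simp

section mod
variable {X : Type u} [AddCommGroup X] [Module A X] [Module k X]

lemma smul_proj (GA : GrAlg k A) (G : Gr k X) (hG : IsMod GA G) {d : ℕ} {x : X}
    (hx : x ∈ G.piece d) (a : A) (e : ℕ) :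
    G.proj e (a • x) = if d ≤ e then GA.gr.proj (e - d) a • x else 0 := by
  have ha : a = ∑ t ∈ Finset.range (GA.gr.top + 1), GA.gr.proj t a := (GA.gr.sum_proj a).symm
  have h1 : ∀ t, G.proj e (GA.gr.proj t a • x) = if t + d = e then GA.gr.proj t a • x else 0 :=
    fun t => G.proj_of_mem (hG t d _ x (GA.gr.proj_mem t a) hx)
  conv_lhs => rw [ha, Finset.sum_smul, map_sum]
  simp only [h1]
  split_ifs with h
  · by_cases ht : e - d ≤ GA.gr.top
    · rw [Finset.sum_eq_single (e - d)]
      · rw [if_pos (by omega)]
      · intro t _ hne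
        rw [if_neg (by omega)]
      · intro hnot
        exact absurd (Finset.mem_range.2 (by omega)) hnot
    · rw [GA.gr.proj_zero _ (by omega)]
      simp only [LinearMap.zero_apply, zero_smul]
      apply Finset.sum_eq_zero
      intro t ht'
      have := Finset.mem_range.1 ht'
      rw [if_neg (by omega)]
  · apply Finset.sum_eq_zero
    intro t _
    rw [if_neg (by omega)]

end mod


lemma finrank_of_mem_iff {B : Type u} [AddCommGroup B] [Module k B] {m : ℕ}
    (W : Submodule k (Fin m → B)) (Q : Fin m → Submodule k B)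
    (h : ∀ v, v ∈ W ↔ ∀ j, v j ∈ Q j) [∀ j, Module.Finite k (Q j)] :
    Module.finrank k W = ∑ j, Module.finrank k (Q j) := by
  let e : W ≃ₗ[k] ((j : Fin m) → Q j) :=
    { toFun := fun v j => ⟨(v : Fin m → B) j, (h v).1 v.2 j⟩
      map_add' := fun x y => rfl
      map_smul' := fun c x => rfl
      invFun := fun w => ⟨fun j => (w j : B), (h _).2 fun j => (w j).2⟩
      left_inv := fun v => rfl
      right_inv := fun w => rfl }
  rw [e.finrank_eq, Module.finrank_pi_fintype]

lemma pdim_cover [FiniteDimensional k A] (GA : GrAlg k A) {m : ℕ} (deg : Fin m → ℕ) (e : ℕ) :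
    pdim (coverGr GA deg) e =
      ∑ j, if deg j ≤ e then pdim GA.gr (e - deg j) else 0 := by
  unfold pdim
  have := finrank_of_mem_iff ((coverGr GA deg).piece e)
    (fun j => if deg j ≤ e then GA.gr.piece (e - deg j) else (⊥ : Submodule k A))
    (fun v => mem_coverGr_piece GA deg e v)
  rw [this]
  apply Finset.sum_congr rfl
  intro j _
  by_cases hd : deg j ≤ e
  · rw [if_pos hd, if_pos hd]
  · rw [if_neg hd, if_neg hd]
    simp

section hom
variable {N : Type u} [AddCommGroup N] [Module A N] [Module k N] [IsScalarTower k A N]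

lemma single_mem_piece (GA : GrAlg k A) {m : ℕ} (deg : Fin m → ℕ) (j : Fin m) :
    (Pi.single j (1 : A) : Fin m → A) ∈ (coverGr GA deg).piece (deg j) := by
  rw [mem_coverGr_piece]
  intro j'
  by_cases hj : j' = j
  · subst hj
    simp only [le_refl, if_true, Pi.single_eq_same, Nat.sub_self]
    exact GA.one_mem
  · rw [Pi.single_eq_of_ne hj]
    exact (if deg j' ≤ deg j then GA.gr.piece (deg j - deg j') else (⊥ : Submodule k A)).zero_mem

/-- `Hom_c` out of the free module is the product of the relevant pieces of the target. -/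
noncomputable def homCoverEquiv (GA : GrAlg k A) {m : ℕ} (deg : Fin m → ℕ) (H : Gr k N)
    (hH : IsMod GA H) (c : ℕ) :
    Hom (A := A) (coverGr GA deg) H c ≃ₗ[k]
      ((j : Fin m) → (if c ≤ deg j then H.piece (deg j - c) else (⊥ : Submodule k N) :
        Submodule k N)) where
  toFun u j := ⟨(u : (Fin m → A) →ₗ[A] N) (Pi.single j 1), by
    have h := u.2 (deg j) _ (single_mem_piece GA deg j)
    by_cases hd : c ≤ deg j
    · simp only [hd, if_true]
      exact h.1 hd
    · simp only [hd, if_false]
      exact h.2 (by omega)⟩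
  map_add' x y := by
    funext j
    apply Subtype.ext
    rfl
  map_smul' r x := by
    funext j
    apply Subtype.ext
    rfl
  invFun w := ⟨Fintype.linearCombination A (fun j => (w j : N)), by
    intro e x hx
    have hx' := (mem_coverGr_piece GA deg e x).1 hx
    have hterm : ∀ j, (c ≤ e → x j • (w j : N) ∈ H.piece (e - c)) ∧
        (e < c → x j • (w j : N) = 0) := by
      intro j
      have hxj := hx' j
      have hwj := (w j).2
      by_cases hde : deg j ≤ e
      · simp only [hde, if_true] at hxj
        by_cases hcd : c ≤ deg j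
        · simp only [hcd, if_true] at hwj
          have h3 := hH _ _ _ _ hxj hwj
          have h4 : e - deg j + (deg j - c) = e - c := by omega
          rw [h4] at h3
          exact ⟨fun _ => h3, fun hec => by omega⟩
        · simp only [hcd, if_false] at hwj
          have : (w j : N) = 0 := hwj
          rw [this, smul_zero]
          exact ⟨fun _ => Submodule.zero_mem _, fun _ => rfl⟩
      · simp only [hde, if_false] at hxj
        have : x j = 0 := hxj
        rw [this, zero_smul]
        exact ⟨fun _ => Submodule.zero_mem _, fun _ => rfl⟩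
    rw [Fintype.linearCombination_apply]
    refine ⟨fun hce => Submodule.sum_mem _ fun j _ => (hterm j).1 hce, fun hec => ?_⟩
    exact Finset.sum_eq_zero fun j _ => (hterm j).2 hec⟩
  left_inv u := by
    apply Subtype.ext
    apply LinearMap.pi_ext'
    intro j
    apply LinearMap.ext_ring
    simp [Fintype.linearCombination_apply_single]
  right_inv w := by
    funext j
    apply Subtype.ext
    simp [Fintype.linearCombination_apply_single]

lemma hdim_cover [Module.Finite k N] (GA : GrAlg k A) {m : ℕ} (deg : Fin m → ℕ) (H : Gr k N)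
    (hH : IsMod GA H) (c : ℕ) :
    hdim (A := A) (coverGr GA deg) H c = ∑ j, if c ≤ deg j then pdim H (deg j - c) else 0 := by
  unfold hdim
  rw [(homCoverEquiv GA deg H hH c).finrank_eq, Module.finrank_pi_fintype]
  apply Finset.sum_congr rfl
  intro j _
  by_cases hd : c ≤ deg j
  · rw [if_pos hd, if_pos hd]
    rfl
  · rw [if_neg hd, if_neg hd]
    simp

end hom

lemma sum_key (h n : ℕ → ℤ) (s d T : ℕ) (hT : d + s ≤ T) (hh : ∀ t, s < t → h t = 0) :
    ∑ c ∈ Finset.range (s + 1), h (s - c) * (if c ≤ d then n (d - c) else 0) =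
      ∑ e ∈ Finset.range (T + 1), (if d ≤ e then h (e - d) else 0) *
        (if s ≤ e then n (e - s) else 0) := by
  have hsplit : T + 1 = d + ((s + 1) + (T - d - s)) := by omega
  have hR : ∑ e ∈ Finset.range (T + 1), (if d ≤ e then h (e - d) else 0) *
        (if s ≤ e then n (e - s) else 0) =
      ∑ x ∈ Finset.range (s + 1), h x * (if s ≤ d + x then n (d + x - s) else 0) := by
    conv_lhs => rw [hsplit, Finset.sum_range_add, Finset.sum_range_add]
    rw [Finset.sum_eq_zero, zero_add]
    · have hz : ∑ x ∈ Finset.range (T - d - s),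
          (if d ≤ d + (s + 1 + x) then h (d + (s + 1 + x) - d) else 0) *
            (if s ≤ d + (s + 1 + x) then n (d + (s + 1 + x) - s) else 0) = 0 := by
        apply Finset.sum_eq_zero
        intro x _
        rw [if_pos (by omega), hh _ (by omega), zero_mul]
      rw [hz, add_zero]
      apply Finset.sum_congr rfl
      intro x _
      rw [if_pos (by omega), show d + x - d = x by omega]
    · intro x hx
      have := Finset.mem_range.1 hx
      rw [if_neg (by omega), zero_mul]
  rw [hR]
  conv_rhs => rw [← Finset.sum_range_reflect]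
  apply Finset.sum_congr rfl
  intro c hc
  have hc' := Finset.mem_range.1 hc
  have h1 : s + 1 - 1 - c = s - c := by omega
  rw [h1]
  by_cases hcd : c ≤ d
  · rw [if_pos hcd, if_pos (by omega), show d + (s - c) - s = d - c by omega]
  · rw [if_neg hcd, if_neg (by omega)]

lemma lam_cover [FiniteDimensional k A] {N : Type u} [AddCommGroup N] [Module A N] [Module k N]
    [IsScalarTower k A N] [Module.Finite k N] (GA : GrAlg k A) {m : ℕ} (deg : Fin m → ℕ)
    (H : Gr k N) (hH : IsMod GA H) : Lam GA (coverGr GA deg) H = 0 := by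
  unfold Lam
  rw [sub_eq_zero]
  have h0 : ∀ t, GA.gr.top < t → (pdim GA.gr t : ℤ) = 0 := by
    intro t ht
    have : GA.gr.piece t = ⊥ := by
      unfold Gr.piece
      rw [GA.gr.proj_zero t ht, LinearMap.range_zero]
    simp [pdim, this]
  have key := fun j => sum_key (fun t => (pdim GA.gr t : ℤ)) (fun t => (pdim H t : ℤ)) GA.gr.top
    (deg j) (coverGr GA deg).top
    (by
      have hj : deg j ≤ ∑ j, deg j :=
        Finset.single_le_sum (fun _ _ => Nat.zero_le _) (Finset.mem_univ j)
      show deg j + GA.gr.top ≤ (∑ j, deg j) + GA.gr.top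
      omega) h0
  calc ∑ c ∈ Finset.range (GA.gr.top + 1),
        (pdim GA.gr (GA.gr.top - c) : ℤ) * (hdim (A := A) (coverGr GA deg) H c : ℤ)
      = ∑ c ∈ Finset.range (GA.gr.top + 1), ∑ j, (pdim GA.gr (GA.gr.top - c) : ℤ) *
          (if c ≤ deg j then (pdim H (deg j - c) : ℤ) else 0) := by
        apply Finset.sum_congr rfl
        intro c _
        rw [hdim_cover GA deg H hH c, Nat.cast_sum, Finset.mul_sum]
        apply Finset.sum_congr rfl
        intro j _
        split_ifs <;> simp
    _ = ∑ j, ∑ c ∈ Finset.range (GA.gr.top + 1), (pdim GA.gr (GA.gr.top - c) : ℤ) *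
          (if c ≤ deg j then (pdim H (deg j - c) : ℤ) else 0) := Finset.sum_comm
    _ = ∑ j, ∑ e ∈ Finset.range ((coverGr GA deg).top + 1),
          (if deg j ≤ e then (pdim GA.gr (e - deg j) : ℤ) else 0) *
          (if GA.gr.top ≤ e then (pdim H (e - GA.gr.top) : ℤ) else 0) :=
        Finset.sum_congr rfl fun j _ => key j
    _ = ∑ e ∈ Finset.range ((coverGr GA deg).top + 1), ∑ j,
          (if deg j ≤ e then (pdim GA.gr (e - deg j) : ℤ) else 0) *
          (if GA.gr.top ≤ e then (pdim H (e - GA.gr.top) : ℤ) else 0) := Finset.sum_comm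
    _ = _ := by
        apply Finset.sum_congr rfl
        intro e _
        rw [pdim_cover GA deg e, ← Finset.sum_mul, Nat.cast_sum]
        congr 1
        apply Finset.sum_congr rfl
        intro j _
        split_ifs <;> simp


variable [FiniteDimensional k A]
variable {X : Type u} [AddCommGroup X] [Module A X] [Module k X] [IsScalarTower k A X]
  [Module.Finite A X]

/-- JOB G2. The cover. `P = Fin m → A` where `b : Fin m → X` is a homogeneous `k`-basis of `X`,
`b j` of degree `deg j`; `(GP.proj e v) j = GA.gr.proj (e - deg j) (v j)` if `deg j ≤ e` and `0`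
otherwise; `μ v = ∑ j, v j • b j`; `GY` is the restriction of `GP` to `ker μ`.
Low degree: `(ker μ)_e = 0` for `e ≤ l`: for `e < l` because `P_e = 0`; for `e = l` because `v ∈ P_l`
has `v j = 0` unless `deg j = l`, and then `v j ∈ A_0 = k`, so that `μ v = 0` gives `v = 0` by
linear independence.
Numerics: `Hom_c(P, N) ≃ ∏_j N_(deg j - c)` (the `0` space if `deg j < c`), `P_e ≃ ∏_j A_(e - deg j)`,
and both sums in `Lam GA GP H` equal `∑_j ∑_t h_t dim N_(deg j + t - s)` with `h_t = pdim GA.gr t`,
`s = GA.gr.top`, so `Lam GA GP H = 0`. -/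
theorem exists_cover (GA : GrAlg k A) (G : Gr k X) (hG : IsMod GA G) (l : ℕ) (hl : G.LowGE l) :
    ∃ (m : ℕ) (GP : Gr k (Fin m → A)) (μ : (Fin m → A) →ₗ[A] X) (GY : Gr k (LinearMap.ker μ)),
      IsMod GA GP ∧ IsMod GA GY ∧ Function.Surjective μ ∧
      (∀ e x, G.proj e (μ x) = μ (GP.proj e x)) ∧
      (∀ e (y : LinearMap.ker μ), GP.proj e y = (GY.proj e y : Fin m → A)) ∧
      GY.LowGE (l + 1) ∧
      (∀ (N : Type u) [AddCommGroup N] [Module A N] [Module k N] [IsScalarTower k A N]
        [Module.Finite A N] (H : Gr k N), IsMod GA H → Lam GA GP H = 0) := by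
  classical
  haveI : Module.Finite k X := Module.Finite.trans A X
  obtain ⟨m, B, deg, hB⟩ := G.exists_basis
  let μ : (Fin m → A) →ₗ[A] X := Fintype.linearCombination A (fun j => B j)
  have hμ : ∀ v, μ v = ∑ j, v j • B j := fun v => Fintype.linearCombination_apply A _ v
  have hgr : ∀ e v, G.proj e (μ v) = μ ((coverGr GA deg).proj e v) := by
    intro e v
    rw [hμ, hμ, map_sum]
    apply Finset.sum_congr rfl
    intro j _
    rw [smul_proj GA G hG (hB j), coverGr_proj_apply]
    split_ifs with h
    · rfl
    · simp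
  have hK : ∀ e y, y ∈ LinearMap.ker μ → (coverGr GA deg).proj e y ∈ LinearMap.ker μ := by
    intro e y hy
    rw [LinearMap.mem_ker] at hy ⊢
    rw [← hgr, hy, map_zero]
  have hdeg : ∀ j, l ≤ deg j := by
    intro j
    by_contra hlt
    have h0 : G.proj (deg j) = 0 := hl _ (by omega)
    have h1 : B j = 0 := by
      rw [← (G.mem_piece_iff).1 (hB j), h0]
      rfl
    exact B.ne_zero j h1
  refine ⟨m, coverGr GA deg, μ, restrictGr _ _ hK, coverGr_isMod GA deg, ?_, ?_, hgr,
    fun e y => rfl, ?_, ?_⟩
  · intro i e a y ha hy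
    rw [Gr.mem_piece_iff]
    apply Subtype.ext
    have h1 : (y : Fin m → A) ∈ (coverGr GA deg).piece e := by
      rw [Gr.mem_piece_iff]
      exact congrArg Subtype.val ((Gr.mem_piece_iff _).1 hy)
    have h2 := coverGr_isMod GA deg i e a _ ha h1
    exact (Gr.mem_piece_iff _).1 h2
  · intro x
    refine ⟨fun j => algebraMap k A (B.repr x j), ?_⟩
    rw [hμ]
    conv_rhs => rw [← B.sum_repr x]
    apply Finset.sum_congr rfl
    intro j _
    exact algebraMap_smul A _ _
  · intro e he
    apply LinearMap.ext
    intro y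
    apply Subtype.ext
    show (coverGr GA deg).proj e (y : Fin m → A) = 0
    have hyker : μ ((coverGr GA deg).proj e (y : Fin m → A)) = 0 :=
      LinearMap.mem_ker.1 (hK e y y.2)
    have hc : ∀ j, ∃ c : k, (coverGr GA deg).proj e (y : Fin m → A) j = algebraMap k A c := by
      intro j
      rw [coverGr_proj_apply]
      by_cases hd : deg j ≤ e
      · rw [if_pos hd]
        have h1 := hdeg j
        have h2 : e - deg j = 0 := by omega
        rw [h2]
        exact GA.conn _ (GA.gr.proj_mem 0 _)
      · rw [if_neg hd]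
        exact ⟨0, by simp⟩
    choose c hc using hc
    have hsum : ∑ j, c j • B j = 0 := by
      rw [← hyker, hμ]
      apply Finset.sum_congr rfl
      intro j _
      rw [hc j]
      exact (algebraMap_smul A _ _).symm
    have hc0 := Fintype.linearIndependent_iff.1 B.linearIndependent c hsum
    funext j
    rw [hc j, hc0 j]
    simp
  · intro N _ _ _ _ _ H hH
    haveI : Module.Finite k N := Module.Finite.trans A N
    exact lam_cover GA deg H hH

end Vale.Agent.Lib.P195G
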