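import Vale.Agent.Lib.P195G.Exact
import Vale.Agent.Lib.P195G.Cover

/-! Vanishing of `Lam` by descent along syzygies. -/

set_option linter.style.haveILetI false
set_option linter.unusedVariables false

open CategoryTheory Abelian

namespace Vale.Agent.Lib.P195G

universe u v

variable {k : Type v} [Field k] {A : Type u} [Ring A] [Algebra k A] [FiniteDimensional k A]

private lemma piece_eq_bot {X : Type u} [AddCommGroup X] [Module k X] (G : Gr k X) {e : ℕ}
    (h : G.proj e = 0) : G.piece e = ⊥ := by
  simp [Gr.piece, h]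

private lemma pdim_eq_zero {X : Type u} [AddCommGroup X] [Module k X] (G : Gr k X) {e : ℕ}
    (h : G.proj e = 0) : pdim G e = 0 := by
  rw [pdim, piece_eq_bot G h]
  exact finrank_bot k X

private lemma eq_zero_of_proj {X : Type u} [AddCommGroup X] [Module k X] (G : Gr k X) {e : ℕ}
    (h : G.proj e = 0) {x : X} (hx : x ∈ G.piece e) : x = 0 := by
  rw [piece_eq_bot G h] at hx
  simpa using hx

/-- A map killing all homogeneous elements vanishes. -/
private lemma hom_eq_zero_of_pieces {X N : Type u} [AddCommGroup X] [Module A X] [Module k X]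
    [AddCommGroup N] [Module A N] (G : Gr k X) (u : X →ₗ[A] N)
    (h : ∀ e x, x ∈ G.piece e → u x = 0) : u = 0 := by
  ext x
  rw [← G.sum_proj x, map_sum]
  exact Finset.sum_eq_zero fun e _ => h e _ ⟨x, rfl⟩

/-- JOB G3. If `t + s < l`, where `s` is the top degree of `A`, `N` lives in degrees `≤ t` and `X`
in degrees `≥ l`, then `Lam` vanishes: all `Hom_c` with `c ≤ s` are zero and so are all the products
`dim X_e dim N_(e-s)`. -/
theorem lam_base (GA : GrAlg k A)
    {X N : Type u} [AddCommGroup X] [Module A X] [Module k X] [IsScalarTower k A X]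
    [Module.Finite A X]
    [AddCommGroup N] [Module A N] [Module k N] [IsScalarTower k A N] [Module.Finite A N]
    (G : Gr k X) (H : Gr k N) (l t : ℕ) (hl : G.LowGE l) (ht : ∀ e, t < e → H.proj e = 0)
    (hr : t + GA.gr.top < l) : Lam GA G H = 0 := by
  unfold Lam
  have h1 : ∀ c ∈ Finset.range (GA.gr.top + 1),
      (pdim GA.gr (GA.gr.top - c) : ℤ) * (hdim (A := A) G H c : ℤ) = 0 := by
    intro c hc
    have hc' : c ≤ GA.gr.top := Nat.lt_succ_iff.mp (Finset.mem_range.mp hc)
    have hb : Hom (A := A) G H c = ⊥ := by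
      rw [Submodule.eq_bot_iff]
      intro u hu
      refine hom_eq_zero_of_pieces G u fun e x hx => ?_
      by_cases hel : e < l
      · rw [eq_zero_of_proj G (hl e hel) hx, map_zero]
      · have hce : c ≤ e := by omega
        exact eq_zero_of_proj H (ht (e - c) (by omega)) ((hu e x hx).1 hce)
    have : hdim (A := A) G H c = 0 := by
      rw [hdim, hb]
      exact finrank_bot k _
    simp [this]
  have h2 : ∀ e ∈ Finset.range (G.top + 1),
      (pdim G e : ℤ) * (if GA.gr.top ≤ e then (pdim H (e - GA.gr.top) : ℤ) else 0) = 0 := by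
    intro e _
    by_cases hel : e < l
    · simp [pdim_eq_zero G (hl e hel)]
    · have hse : GA.gr.top ≤ e := by omega
      simp [hse, pdim_eq_zero H (ht (e - GA.gr.top) (by omega))]
  rw [Finset.sum_eq_zero h1, Finset.sum_eq_zero h2, sub_zero]

private lemma sum_top_eq {X : Type u} [AddCommGroup X] [Module k X] (G : Gr k X) (T : ℕ)
    (hT : G.top ≤ T) (f : ℕ → ℤ) :
    ∑ e ∈ Finset.range (G.top + 1), (pdim G e : ℤ) * f e
      = ∑ e ∈ Finset.range (T + 1), (pdim G e : ℤ) * f e := by
  refine Finset.sum_subset ?_ ?_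
  · intro e he
    simp only [Finset.mem_range] at he ⊢
    omega
  · intro e _ he
    have : G.top < e := by
      simp only [Finset.mem_range] at he
      omega
    simp [pdim_eq_zero G (G.proj_zero e this)]

/-- `Lam` is additive along a short exact sequence on which `pdim` and `hdim` are additive. -/
private lemma lam_add (GA : GrAlg k A)
    {Y P X N : Type u}
    [AddCommGroup Y] [Module A Y] [Module k Y] [IsScalarTower k A Y]
    [AddCommGroup P] [Module A P] [Module k P] [IsScalarTower k A P]
    [AddCommGroup X] [Module A X] [Module k X] [IsScalarTower k A X]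
    [AddCommGroup N] [Module A N] [Module k N] [IsScalarTower k A N]
    (GY : Gr k Y) (GP : Gr k P) (GX : Gr k X) (H : Gr k N)
    (h1 : ∀ e, pdim GP e = pdim GX e + pdim GY e)
    (h2 : ∀ c, hdim (A := A) GP H c = hdim (A := A) GX H c + hdim (A := A) GY H c) :
    Lam GA GP H = Lam GA GX H + Lam GA GY H := by
  unfold Lam
  set f : ℕ → ℤ := fun e => if GA.gr.top ≤ e then (pdim H (e - GA.gr.top) : ℤ) else 0 with hf
  set T := max GP.top (max GX.top GY.top) with hT
  rw [sum_top_eq GP T (by omega) f, sum_top_eq GX T (by omega) f, sum_top_eq GY T (by omega) f]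
  have e1 : ∑ c ∈ Finset.range (GA.gr.top + 1),
        (pdim GA.gr (GA.gr.top - c) : ℤ) * (hdim (A := A) GP H c : ℤ)
      = ∑ c ∈ Finset.range (GA.gr.top + 1),
          (pdim GA.gr (GA.gr.top - c) : ℤ) * (hdim (A := A) GX H c : ℤ)
        + ∑ c ∈ Finset.range (GA.gr.top + 1),
          (pdim GA.gr (GA.gr.top - c) : ℤ) * (hdim (A := A) GY H c : ℤ) := by
    rw [← Finset.sum_add_distrib]
    refine Finset.sum_congr rfl fun c _ => ?_
    rw [h2 c]
    push_cast
    ring
  have e2 : ∑ e ∈ Finset.range (T + 1), (pdim GP e : ℤ) * f e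
      = ∑ e ∈ Finset.range (T + 1), (pdim GX e : ℤ) * f e
        + ∑ e ∈ Finset.range (T + 1), (pdim GY e : ℤ) * f e := by
    rw [← Finset.sum_add_distrib]
    refine Finset.sum_congr rfl fun e _ => ?_
    rw [h1 e]
    push_cast
    ring
  rw [e1, e2]
  ring

/-- JOB G4. Descent: induction on `r`, using `exists_cover` at each step, `hdim_ses`, `pdim_ses`, the
vanishing `Lam GA GP H = 0` for the cover, `extend_of_ext_vanish` for the extension property from
`Ext¹`, `ext_shift_first` for `Ext^i(Y, N) = 0`, and `lam_base` for the base case. Since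
`Lam GA G H` and `Lam GA GY H` sum over different ranges of degrees one also needs that `pdim` vanishes
above the top degree. -/
theorem lam_eq_zero (GA : GrAlg k A) :
    ∀ (r l : ℕ) {X : Type u} [AddCommGroup X] [Module A X] [Module k X] [IsScalarTower k A X]
      [Module.Finite A X] (G : Gr k X), IsMod GA G → G.LowGE l →
      ∀ {N : Type u} [AddCommGroup N] [Module A N] [Module k N] [IsScalarTower k A N]
        [Module.Finite A N] (H : Gr k N), IsMod GA H →
      ∀ t : ℕ, (∀ e, t < e → H.proj e = 0) → t + GA.gr.top < l + r →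
      (∀ i, 1 ≤ i → i ≤ r → ∀ e : Ext (ModuleCat.of A X) (ModuleCat.of A N) i, e = 0) →
      Lam GA G H = 0 := by
  intro r
  induction r with
  | zero =>
    intro l X _ _ _ _ _ G hG hl N _ _ _ _ _ H hH t ht hr _
    exact lam_base GA G H l t hl ht (by omega)
  | succ r ih =>
    intro l X _ _ _ _ _ G hG hl N _ _ _ _ _ H hH t ht hr hext
    obtain ⟨m, GP, μ, GY, hGP, hGY, hμ, gp, gi, hlow, hlam⟩ := exists_cover GA G hG l hl
    haveI : IsNoetherian A A := isNoetherian_of_tower k inferInstance
    haveI : Module.Finite A (LinearMap.ker μ) := Module.Finite.of_injective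
      (LinearMap.ker μ).subtype (LinearMap.ker μ).injective_subtype
    have hS : (μ.shortComplexKer).ShortExact := LinearMap.shortExact_shortComplexKer hμ
    haveI : Projective (μ.shortComplexKer).X₂ := by
      change Projective (ModuleCat.of A (Fin m → A))
      infer_instance
    have hext1 : ∀ v : LinearMap.ker μ →ₗ[A] N, ∃ w : (Fin m → A) →ₗ[A] N,
        w ∘ₗ (LinearMap.ker μ).subtype = v := by
      intro v
      obtain ⟨g, hg⟩ := Vale.Agent.Lib.P195.extend_of_ext_vanish hS (ModuleCat.of A N)
        (hext 1 le_rfl (by omega)) (ModuleCat.ofHom v)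
      refine ⟨g.hom, ?_⟩
      exact congrArg ModuleCat.Hom.hom hg
    have hY : Lam GA GY H = 0 := by
      refine ih (l + 1) GY hGY hlow H hH t ht (by omega) ?_
      intro i hi1 hir e
      obtain ⟨n, rfl⟩ : ∃ n, i = n + 1 := ⟨i - 1, by omega⟩
      exact Vale.Agent.Lib.P195.ext_shift_first hS (ModuleCat.of A N) n
        (hext (n + 2) (by omega) (by omega)) e
    have hadd := lam_add GA GY GP G H
      (pdim_ses (A := A) GY GP G (LinearMap.ker μ).subtype μ (LinearMap.ker μ).injective_subtype hμ
        (by simp) (fun e y => (gi e y)) gp)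
      (hdim_ses GA GY GP G H hGP hG hGY hH (LinearMap.ker μ).subtype μ
        (LinearMap.ker μ).injective_subtype hμ (by simp) (fun e y => (gi e y)) gp hext1)
    rw [hlam N H hH, hY, add_zero] at hadd
    exact hadd.symm

end Vale.Agent.Lib.P195G
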