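import Vale.Agent.Lib.P195G.Descent

/-! Modules generated in degree zero: the numerical identity produces a free summand. -/

set_option linter.style.haveILetI false
set_option linter.unusedVariables false

open CategoryTheory Abelian

namespace Vale.Agent.Lib.P195G

universe u v

variable {k : Type v} [Field k] {A : Type u} [Ring A] [Algebra k A] [FiniteDimensional k A]
variable {M : Type u} [AddCommGroup M] [Module A M] [Module k M] [IsScalarTower k A M]
  [Module.Finite A M]

/-- JOB G5a. For `M` generated in degree `0`, `M_e = 0` for `e > s`. (Each element is a sum of `a • x`,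
`x ∈ M_0`; decompose `a` into homogeneous parts of degrees `≤ s`.) -/
theorem proj_eq_zero_of_gen (GA : GrAlg k A) (G : Gr k M) (hG : IsMod GA G)
    (hgen : Submodule.span A (G.piece 0 : Set M) = ⊤) (e : ℕ) (he : GA.gr.top < e) :
    G.proj e = 0 := by
  have key : ∀ x : M, ∀ a : A, G.proj e (a • x) = 0 := by
    intro x
    have hx : x ∈ Submodule.span A (G.piece 0 : Set M) := by rw [hgen]; exact Submodule.mem_top
    induction hx using Submodule.span_induction with
    | mem y hy =>
      intro a
      have hsum : a • y = ∑ i ∈ Finset.range (GA.gr.top + 1), (GA.gr.proj i a) • y := by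
        rw [← Finset.sum_smul, GA.gr.sum_proj a]
      rw [hsum, map_sum]
      refine Finset.sum_eq_zero ?_
      intro i hi
      have hi' : i ≤ GA.gr.top := Nat.lt_succ_iff.mp (Finset.mem_range.mp hi)
      have hmem : (GA.gr.proj i a) • y ∈ G.piece (i + 0) :=
        hG i 0 _ y ⟨a, rfl⟩ hy
      have hfix := (G.mem_piece_iff).1 hmem
      rw [← hfix]
      exact G.proj_ne e (i + 0) _ (by omega)
    | zero =>
      intro a
      simp
    | add y z _ _ hy hz =>
      intro a
      rw [smul_add, map_add, hy a, hz a, add_zero]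
    | smul b y _ hy =>
      intro a
      rw [smul_smul]
      exact hy (a * b)
  ext x
  simpa using key x 1

/-- JOB G5b. For `M` generated in degree `0`, `Hom_c(M, N) = ⊥` for `c ≥ 1`, so `hdim = 0`. -/
theorem hdim_eq_zero_of_gen (GA : GrAlg k A) (G : Gr k M) (hG : IsMod GA G)
    (hgen : Submodule.span A (G.piece 0 : Set M) = ⊤)
    {N : Type u} [AddCommGroup N] [Module A N] [Module k N] [IsScalarTower k A N]
    [Module.Finite A N] (H : Gr k N) (c : ℕ) (hc : 1 ≤ c) : hdim (A := A) G H c = 0 := by
  have hbot : Hom (A := A) G H c = ⊥ := by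
    rw [eq_bot_iff]
    intro u hu
    rw [Submodule.mem_bot]
    have hzero : ∀ x : M, x ∈ Submodule.span A (G.piece 0 : Set M) → u x = 0 := by
      intro x hx
      induction hx using Submodule.span_induction with
      | mem y hy => exact (hu 0 y hy).2 (by omega)
      | zero => simp
      | add y z _ _ hy hz => rw [map_add, hy, hz, add_zero]
      | smul b y _ hy => rw [map_smul, hy, smul_zero]
    ext x
    exact hzero x (by rw [hgen]; exact Submodule.mem_top)
  unfold hdim
  rw [hbot]
  exact finrank_bot k _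

/-- JOB G5c. The identity `h_s hdim_0(M, N) = dim M_s · dim N_0` for `M` generated in degree `0`, from
`Lam GA G H = 0`, `hdim_eq_zero_of_gen` and `proj_eq_zero_of_gen`. -/
theorem key_identity (GA : GrAlg k A) (G : Gr k M) (hG : IsMod GA G)
    (hgen : Submodule.span A (G.piece 0 : Set M) = ⊤)
    {N : Type u} [AddCommGroup N] [Module A N] [Module k N] [IsScalarTower k A N]
    [Module.Finite A N] (H : Gr k N) (hlam : Lam GA G H = 0) :
    pdim GA.gr GA.gr.top * hdim (A := A) G H 0 = pdim G GA.gr.top * pdim H 0 := by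
  have hpz : ∀ e, G.proj e = 0 → pdim G e = 0 := by
    intro e he
    unfold pdim Gr.piece
    rw [he, LinearMap.range_zero]
    exact finrank_bot k _
  have h1 : (∑ c ∈ Finset.range (GA.gr.top + 1),
      (pdim GA.gr (GA.gr.top - c) : ℤ) * (hdim (A := A) G H c : ℤ))
      = (pdim GA.gr GA.gr.top : ℤ) * (hdim (A := A) G H 0 : ℤ) := by
    rw [Finset.sum_eq_single 0]
    · simp
    · intro c _ hc
      rw [hdim_eq_zero_of_gen GA G hG hgen H c (Nat.one_le_iff_ne_zero.mpr hc)]
      simp
    · intro h
      exact absurd (Finset.mem_range.mpr (Nat.succ_pos _)) h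
  have h2 : (∑ e ∈ Finset.range (G.top + 1),
      (pdim G e : ℤ) * (if GA.gr.top ≤ e then (pdim H (e - GA.gr.top) : ℤ) else 0))
      = (pdim G GA.gr.top : ℤ) * (pdim H 0 : ℤ) := by
    rw [Finset.sum_eq_single GA.gr.top]
    · simp
    · intro b _ hb
      rcases lt_or_gt_of_ne hb with hlt | hgt
      · rw [if_neg (not_le.mpr hlt), mul_zero]
      · rw [hpz b (proj_eq_zero_of_gen GA G hG hgen b hgt)]
        simp
    · intro h
      have htop : G.top < GA.gr.top := by
        by_contra hc
        exact h (Finset.mem_range.mpr (by omega))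
      rw [hpz _ (G.proj_zero _ htop)]
      simp
  have h3 := hlam
  unfold Lam at h3
  rw [h1, h2] at h3
  have h4 : (pdim GA.gr GA.gr.top : ℤ) * (hdim (A := A) G H 0 : ℤ)
      = (pdim G GA.gr.top : ℤ) * (pdim H 0 : ℤ) := by linarith
  exact_mod_cast h4

/-- The algebra grading is a module grading of the regular module. -/
lemma isMod_self (GA : GrAlg k A) : IsMod GA GA.gr := by
  intro i e a x ha hx
  simpa [smul_eq_mul] using GA.mul_mem i e a x ha hx

/-- The space of `A`-linear maps is finite-dimensional over `k`. -/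
lemma finite_linearMap {N : Type u} [AddCommGroup N] [Module A N] [Module k N]
    [IsScalarTower k A N] [Module.Finite A N] : Module.Finite k (M →ₗ[A] N) := by
  haveI : Module.Finite k M := Module.Finite.trans A M
  haveI : Module.Finite k N := Module.Finite.trans A N
  let f : (M →ₗ[A] N) →ₗ[k] (M →ₗ[k] N) :=
    { toFun := fun u => u.restrictScalars k
      map_add' := fun _ _ => rfl
      map_smul' := fun _ _ => rfl }
  refine Module.Finite.of_injective f ?_
  intro u v huv
  ext y
  exact LinearMap.congr_fun huv y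

/-- A nonzero `Hom_0`: positivity of the dimension gives a nonzero element. -/
lemma exists_ne_zero_hom {N : Type u} [AddCommGroup N] [Module A N] [Module k N]
    [IsScalarTower k A N] [Module.Finite A N] (G : Gr k M) (H : Gr k N) (c : ℕ)
    (h : hdim (A := A) G H c ≠ 0) : ∃ u : M →ₗ[A] N, u ∈ Hom (A := A) G H c ∧ u ≠ 0 := by
  by_contra hcon
  push Not at hcon
  apply h
  have : Hom (A := A) G H c = ⊥ := by
    rw [Submodule.eq_bot_iff]
    exact hcon
  unfold hdim
  rw [this]
  simp

/-- A nonzero element of `Hom` gives a positive dimension. -/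
lemma hdim_pos_of_ne {N : Type u} [AddCommGroup N] [Module A N] [Module k N]
    [IsScalarTower k A N] [Module.Finite A N] (G : Gr k M) (H : Gr k N) (c : ℕ)
    (u : M →ₗ[A] N) (hu : u ∈ Hom (A := A) G H c) (hne : u ≠ 0) : 0 < hdim (A := A) G H c := by
  haveI : Module.Finite k (M →ₗ[A] N) := finite_linearMap (k := k) (A := A) (M := M)
  unfold hdim
  apply Nat.pos_of_ne_zero
  intro h0
  have hb : Hom (A := A) G H c = ⊥ := Submodule.finrank_eq_zero.mp h0
  rw [hb] at hu
  exact hne ((Submodule.mem_bot k).mp hu)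

/-- A nonzero piece has positive dimension. -/
lemma pdim_pos_of_ne {X : Type u} [AddCommGroup X] [Module k X] [FiniteDimensional k X]
    (G : Gr k X) (e : ℕ) (h : G.piece e ≠ ⊥) : 0 < pdim G e := by
  unfold pdim
  apply Nat.pos_of_ne_zero
  intro h0
  exact h (Submodule.finrank_eq_zero.mp h0)

/-- Maps in `Hom_0` are compatible with the projections. -/
lemma hom_zero_proj {N : Type u} [AddCommGroup N] [Module A N] [Module k N]
    [IsScalarTower k A N] (G : Gr k M) (H : Gr k N) (u : M →ₗ[A] N)
    (hu : u ∈ Hom (A := A) G H 0) (e : ℕ) (y : M) : H.proj e (u y) = u (G.proj e y) := by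
  have hy : y = ∑ d ∈ Finset.range (G.top + 1), G.proj d y := (G.sum_proj y).symm
  have hterm : ∀ d, H.proj d (u (G.proj d y)) = u (G.proj d y) := by
    intro d
    have hm : G.proj d y ∈ G.piece d := ⟨y, rfl⟩
    have := (hu d _ hm).1 (Nat.zero_le d)
    simpa using (Gr.mem_piece_iff H).1 this
  by_cases he : e ≤ G.top
  · conv_lhs => rw [hy]
    rw [map_sum, map_sum]
    rw [Finset.sum_eq_single e]
    · exact hterm e
    · intro d _ hd
      rw [← hterm d]
      exact H.proj_ne e d _ (Ne.symm hd)
    · intro hnot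
      exact absurd (Finset.mem_range.mpr (Nat.lt_succ_of_le he)) hnot
  · have hz : G.proj e = 0 := G.proj_zero e (by omega)
    rw [hz]
    conv_lhs => rw [hy]
    rw [map_sum, map_sum]
    simp only [LinearMap.zero_apply, map_zero]
    apply Finset.sum_eq_zero
    intro d hd
    have hdlt : d ≠ e := by
      intro h
      subst h
      exact he (Nat.lt_succ_iff.mp (Finset.mem_range.mp hd))
    rw [← hterm d]
    exact H.proj_ne e d _ (Ne.symm hdlt)

/-- The grading restricted to the kernel of a map in `Hom_0`. -/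
noncomputable def kerGr (GA : GrAlg k A) (G : Gr k M) (φ : M →ₗ[A] A)
    (hφ : φ ∈ Hom (A := A) G GA.gr 0) : Gr k (LinearMap.ker φ) where
  proj e :=
    { toFun := fun y => ⟨G.proj e y, by
        have := hom_zero_proj G GA.gr φ hφ e (y : M)
        rw [LinearMap.mem_ker, ← this, LinearMap.mem_ker.mp y.2, map_zero]⟩
      map_add' := fun a b => by
        apply Subtype.ext
        simp
      map_smul' := fun c a => by
        apply Subtype.ext
        simp }
  top := G.top
  proj_zero e he := by
    ext y
    simp [G.proj_zero e he]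
  proj_proj e x := by
    apply Subtype.ext
    exact G.proj_proj e x
  proj_ne e e' x hne := by
    apply Subtype.ext
    exact G.proj_ne e e' x hne
  sum_proj x := by
    apply Subtype.ext
    rw [Submodule.coe_sum]
    exact G.sum_proj x

lemma kerGr_proj_coe (GA : GrAlg k A) (G : Gr k M) (φ : M →ₗ[A] A)
    (hφ : φ ∈ Hom (A := A) G GA.gr 0) (e : ℕ) (y : LinearMap.ker φ) :
    (((kerGr GA G φ hφ).proj e y : LinearMap.ker φ) : M) = G.proj e y := rfl

lemma kerGr_mem_piece_iff (GA : GrAlg k A) (G : Gr k M) (φ : M →ₗ[A] A)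
    (hφ : φ ∈ Hom (A := A) G GA.gr 0) (e : ℕ) (y : LinearMap.ker φ) :
    y ∈ (kerGr GA G φ hφ).piece e ↔ (y : M) ∈ G.piece e := by
  rw [Gr.mem_piece_iff, Gr.mem_piece_iff, ← kerGr_proj_coe GA G φ hφ e y]
  exact Subtype.ext_iff

/-- JOB G5d. Splitting off. Assume `M` nonzero, generated in degree `0`, and
`Ext^i(M, M) = Ext^i(M, A) = 0` for `1 ≤ i ≤ 2 s + 1`. Apply `lam_eq_zero` with `l = 0`,
`r = 2 s + 1`, `t = s` to `(M, M)`: `key_identity` gives `h_s hdim_0(M, M) = dim M_s dim M_0`; here
`hdim_0(M, M) ≥ 1` since the identity lies in `Hom_0`, `h_s > 0`, so `dim M_s > 0`. Apply it to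
`(M, A)`: `h_s hdim_0(M, A) = dim M_s dim A_0 = dim M_s > 0`, so `Hom_0(M, A) ≠ ⊥`. A nonzero
`φ ∈ Hom_0(M, A)` is nonzero on `M_0` (generation), and maps `M_0` to `A_0 = k`; after scaling
`φ x = 1` for some `x ∈ M_0`. Conclude: `φ` is a split surjection, `ker φ` carries the restricted
grading, is generated in degree `0` (write `M_0 = k x ⊕ (M_0 ∩ ker φ)`), and
`finrank k (ker φ) < finrank k M`. -/
theorem exists_split (GA : GrAlg k A) (G : Gr k M) (hG : IsMod GA G)
    (hgen : Submodule.span A (G.piece 0 : Set M) = ⊤) (hne : Nontrivial M)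
    (hMM : ∀ i, 1 ≤ i → i ≤ 2 * GA.gr.top + 1 →
      ∀ e : Ext (ModuleCat.of A M) (ModuleCat.of A M) i, e = 0)
    (hMA : ∀ i, 1 ≤ i → i ≤ 2 * GA.gr.top + 1 →
      ∀ e : Ext (ModuleCat.of A M) (ModuleCat.of A A) i, e = 0) :
    ∃ (φ : M →ₗ[A] A) (x : M), φ x = 1 ∧
      ∃ G' : Gr k (LinearMap.ker φ), IsMod GA G' ∧
        Submodule.span A (G'.piece 0 : Set (LinearMap.ker φ)) = ⊤ := by
  classical
  haveI : Module.Finite k M := Module.Finite.trans A M
  set s := GA.gr.top with hs
  -- the two vanishing statements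
  have hGtop : ∀ e, s < e → G.proj e = 0 := fun e he =>
    proj_eq_zero_of_gen GA G hG hgen e he
  have hlamM : Lam GA G G = 0 :=
    lam_eq_zero GA (2 * s + 1) 0 G hG (fun e he => absurd he (Nat.not_lt_zero e)) G hG s hGtop
      (by omega) hMM
  have hlamA : Lam GA G GA.gr = 0 :=
    lam_eq_zero GA (2 * s + 1) 0 G hG (fun e he => absurd he (Nat.not_lt_zero e)) GA.gr
      (isMod_self GA) s (fun e he => GA.gr.proj_zero e he) (by omega) hMA
  have hidM := key_identity GA G hG hgen G hlamM
  have hidA := key_identity GA G hG hgen GA.gr hlamA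
  -- positivity
  have hhs : 0 < pdim GA.gr s := pdim_pos_of_ne GA.gr s GA.top_ne
  have hid_mem : (LinearMap.id : M →ₗ[A] M) ∈ Hom (A := A) G G 0 := by
    intro e y hy
    refine ⟨fun _ => by simpa using hy, fun h => absurd h (Nat.not_lt_zero e)⟩
  have hidne : (LinearMap.id : M →ₗ[A] M) ≠ 0 := by
    obtain ⟨a, ha⟩ := exists_ne (0 : M)
    intro h
    exact ha (by simpa using LinearMap.congr_fun h a)
  have hpM : 0 < hdim (A := A) G G 0 := hdim_pos_of_ne G G 0 _ hid_mem hidne
  have hMs : 0 < pdim G s := by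
    have : 0 < pdim G s * pdim G 0 := by
      rw [← hidM]
      exact Nat.mul_pos hhs hpM
    exact Nat.pos_of_mul_pos_right this |> fun h => h
  haveI : Nontrivial A := by
    by_contra hA
    rw [not_nontrivial_iff_subsingleton] at hA
    obtain ⟨a, ha⟩ := exists_ne (0 : M)
    apply ha
    have h1 : (1 : A) = 0 := Subsingleton.elim _ _
    calc a = (1 : A) • a := (one_smul A a).symm
      _ = (0 : A) • a := by rw [h1]
      _ = 0 := zero_smul A a
  have hA0 : 0 < pdim GA.gr 0 := by
    apply pdim_pos_of_ne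
    intro hb
    have h1 : (1 : A) ∈ GA.gr.piece 0 := GA.one_mem
    rw [hb] at h1
    exact one_ne_zero ((Submodule.mem_bot k).mp h1)
  have hpA : hdim (A := A) G GA.gr 0 ≠ 0 := by
    intro h0
    rw [h0, Nat.mul_zero] at hidA
    have : 0 < pdim G s * pdim GA.gr 0 := Nat.mul_pos hMs hA0
    exact this.ne hidA
  obtain ⟨φ, hφ, hφne⟩ := exists_ne_zero_hom G GA.gr 0 hpA
  -- a degree zero element with nonzero image
  have hex : ∃ x ∈ G.piece 0, φ x ≠ 0 := by
    by_contra hcon
    push Not at hcon
    apply hφne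
    have hle : (⊤ : Submodule A M) ≤ LinearMap.ker φ := by
      rw [← hgen, Submodule.span_le]
      intro y hy
      exact hcon y hy
    ext y
    exact LinearMap.mem_ker.mp (hle (Submodule.mem_top))
  obtain ⟨x0, hx0, hφx0⟩ := hex
  have hφ0 : ∀ y ∈ G.piece 0, ∃ c : k, φ y = algebraMap k A c := by
    intro y hy
    exact GA.conn _ (by simpa using (hφ 0 y hy).1 le_rfl)
  obtain ⟨c, hc⟩ := hφ0 x0 hx0
  have hcne : c ≠ 0 := by
    rintro rfl
    apply hφx0
    rw [hc, map_zero]
  -- scaled element
  set x : M := c⁻¹ • x0 with hx_def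
  have hx : x ∈ G.piece 0 := Submodule.smul_mem _ _ hx0
  have hφx : φ x = 1 := by
    have : x = algebraMap k A c⁻¹ • x0 := by
      rw [hx_def, algebraMap_smul]
    rw [this, map_smul, hc, smul_eq_mul, ← map_mul, inv_mul_cancel₀ hcne, map_one]
  refine ⟨φ, x, hφx, kerGr GA G φ hφ, ?_, ?_⟩
  · intro i e a y ha hy
    rw [kerGr_mem_piece_iff] at hy ⊢
    exact hG i e a y ha hy
  · -- the projection to the kernel
    let π : M →ₗ[A] LinearMap.ker φ :=
      LinearMap.codRestrict (LinearMap.ker φ)
        (LinearMap.id - (LinearMap.toSpanSingleton A M x).comp φ) (by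
          intro y
          simp [hφx])
    have hπ_id : ∀ y : LinearMap.ker φ, π y = y := by
      intro y
      apply Subtype.ext
      have hy : φ (y : M) = 0 := y.2
      simp [π, hy]
    have hπ_piece : ∀ y ∈ G.piece 0, π y ∈ (kerGr GA G φ hφ).piece 0 := by
      intro y hy
      rw [kerGr_mem_piece_iff]
      obtain ⟨d, hd⟩ := hφ0 y hy
      have h1 : ((π y : LinearMap.ker φ) : M) = y - φ y • x := by
        simp [π]
      rw [h1]
      refine Submodule.sub_mem _ hy ?_
      have h2 : φ y ∈ GA.gr.piece 0 := by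
        simpa using (hφ 0 y hy).1 le_rfl
      simpa using hG 0 0 (φ y) x h2 hx
    rw [eq_top_iff]
    intro y _
    have hspan : Submodule.map π (Submodule.span A (G.piece 0 : Set M)) ≤
        Submodule.span A ((kerGr GA G φ hφ).piece 0 : Set (LinearMap.ker φ)) := by
      rw [Submodule.map_span, Submodule.span_le]
      rintro _ ⟨z, hz, rfl⟩
      exact Submodule.subset_span (hπ_piece z hz)
    apply hspan
    rw [hgen]
    exact ⟨(y : M), Submodule.mem_top, hπ_id y⟩


omit [Algebra k A] [FiniteDimensional k A] in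
/-- `Ext` vanishing passes to a retract in the first variable. -/
private lemma ext_retract_first {X Y Z : ModuleCat.{u} A} (ι : X ⟶ Y) (ρ : Y ⟶ X)
    (h : ι ≫ ρ = 𝟙 X) {i : ℕ} (hv : ∀ e : Ext Y Z i, e = 0) (e : Ext X Z i) : e = 0 := by
  have h1 : e = (Ext.mk₀ (𝟙 X)).comp e (zero_add i) := (Ext.mk₀_id_comp e).symm
  rw [h1, ← h, ← Ext.mk₀_comp_mk₀, Ext.comp_assoc_of_second_deg_zero,
    hv ((Ext.mk₀ ρ).comp e (zero_add i)), Ext.comp_zero]

omit [Algebra k A] [FiniteDimensional k A] in
/-- `Ext` vanishing passes to a retract in the second variable. -/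
private lemma ext_retract_second {X Y Z : ModuleCat.{u} A} (ι : X ⟶ Y) (ρ : Y ⟶ X)
    (h : ι ≫ ρ = 𝟙 X) {i : ℕ} (hv : ∀ e : Ext Z Y i, e = 0) (e : Ext Z X i) : e = 0 := by
  have h1 : e = e.comp (Ext.mk₀ (𝟙 X)) (add_zero i) := (Ext.comp_mk₀_id e).symm
  rw [h1, ← h, ← Ext.mk₀_comp_mk₀, ← Ext.comp_assoc_of_third_deg_zero,
    hv (e.comp (Ext.mk₀ ι) (add_zero i)), Ext.zero_comp]

/-- The strict form of the induction, on `finrank k M < d`. -/
private theorem projective_of_gen_zero_aux (GA : GrAlg k A) :
    ∀ (d : ℕ) {M : Type u} [AddCommGroup M] [Module A M] [Module k M] [IsScalarTower k A M]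
      [Module.Finite A M] (G : Gr k M), IsMod GA G →
      Submodule.span A (G.piece 0 : Set M) = ⊤ → Module.finrank k M < d →
      (∀ i, 1 ≤ i → i ≤ 2 * GA.gr.top + 1 →
        ∀ e : Ext (ModuleCat.of A M) (ModuleCat.of A M) i, e = 0) →
      (∀ i, 1 ≤ i → i ≤ 2 * GA.gr.top + 1 →
        ∀ e : Ext (ModuleCat.of A M) (ModuleCat.of A A) i, e = 0) →
      Module.Projective A M := by
  intro d
  induction d with
  | zero =>
    intro M _ _ _ _ _ G hG hgen hd
    exact absurd hd (Nat.not_lt_zero _)
  | succ n ih =>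
    intro M _ _ _ _ _ G hG hgen hd hMM hMA
    by_cases hne : Nontrivial M
    · obtain ⟨φ, x, hφx, G', hG', hgen'⟩ := exists_split GA G hG hgen hne hMM hMA
      have hφs : ∀ m : M, m - φ m • x ∈ LinearMap.ker φ := by
        intro m
        rw [LinearMap.mem_ker, map_sub, map_smul, hφx, smul_eq_mul, mul_one, sub_self]
      let ρ : M →ₗ[A] LinearMap.ker φ :=
        LinearMap.codRestrict (LinearMap.ker φ)
          (LinearMap.id - (LinearMap.toSpanSingleton A M x).comp φ) (fun m => by
            simpa using hφs m)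
      have hρ : ∀ m : M, ((ρ m : LinearMap.ker φ) : M) = m - φ m • x := fun m => by
        simp [ρ]
      have hρι : ∀ y : LinearMap.ker φ, ρ y = y := by
        intro y
        apply Subtype.ext
        rw [hρ]
        have hy : φ (y : M) = 0 := y.2
        rw [hy, zero_smul, sub_zero]
      have hρsurj : Function.Surjective ρ := fun y => ⟨y, hρι y⟩
      haveI : Module.Finite A (LinearMap.ker φ) := Module.Finite.of_surjective ρ hρsurj
      haveI : Nontrivial A := by
        by_contra hA
        haveI : Subsingleton A := not_nontrivial_iff_subsingleton.mp hA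
        apply GA.top_ne
        rw [eq_bot_iff]
        intro a _
        rw [Submodule.mem_bot]
        exact Subsingleton.elim _ _
      haveI : Module.Finite k M := Module.Finite.trans A M
      have hlt : Module.finrank k (LinearMap.ker φ) < Module.finrank k M := by
        have hK : (LinearMap.ker φ).restrictScalars k < ⊤ := by
          rw [lt_top_iff_ne_top]
          intro htop
          have hxm : x ∈ (LinearMap.ker φ).restrictScalars k := by rw [htop]; exact Submodule.mem_top
          have hx0 : φ x = 0 := hxm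
          rw [hφx] at hx0
          exact one_ne_zero hx0
        have h1 := Submodule.finrank_lt hK.ne
        have h2 : Module.finrank k ((LinearMap.ker φ).restrictScalars k)
            = Module.finrank k (LinearMap.ker φ) :=
          LinearEquiv.finrank_eq ((Submodule.restrictScalarsEquiv k A M (LinearMap.ker φ)).restrictScalars k)
        omega
      let ιc : ModuleCat.of A (LinearMap.ker φ) ⟶ ModuleCat.of A M :=
        ModuleCat.ofHom (LinearMap.ker φ).subtype
      let ρc : ModuleCat.of A M ⟶ ModuleCat.of A (LinearMap.ker φ) := ModuleCat.ofHom ρ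
      have hcat : ιc ≫ ρc = 𝟙 _ := by
        ext y
        exact congrArg Subtype.val (hρι y)
      have hKK : ∀ i, 1 ≤ i → i ≤ 2 * GA.gr.top + 1 →
          ∀ e : Ext (ModuleCat.of A (LinearMap.ker φ)) (ModuleCat.of A (LinearMap.ker φ)) i,
            e = 0 := by
        intro i h1 h2 e
        refine ext_retract_first ιc ρc hcat (fun e' => ?_) e
        exact ext_retract_second ιc ρc hcat (fun e'' => hMM i h1 h2 e'') e'
      have hKA : ∀ i, 1 ≤ i → i ≤ 2 * GA.gr.top + 1 →
          ∀ e : Ext (ModuleCat.of A (LinearMap.ker φ)) (ModuleCat.of A A) i, e = 0 := by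
        intro i h1 h2 e
        exact ext_retract_first ιc ρc hcat (fun e' => hMA i h1 h2 e') e
      haveI hP : Module.Projective A (LinearMap.ker φ) :=
        ih G' hG' hgen' (by omega) hKK hKA
      let i : M →ₗ[A] A × LinearMap.ker φ := φ.prod ρ
      let s : A × LinearMap.ker φ →ₗ[A] M :=
        (LinearMap.toSpanSingleton A M x).coprod (LinearMap.ker φ).subtype
      refine Module.Projective.of_split i s ?_
      ext m
      simp [i, s, hρ]
    · haveI : Subsingleton M := not_nontrivial_iff_subsingleton.mp hne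
      haveI : Module.Free A M := Module.Free.of_subsingleton A M
      exact Module.Projective.of_free

/-- JOB G5e. The induction on `finrank k M`: `M ≅ A ⊕ ker φ`, the `Ext` vanishing passes to the
summand `ker φ` (retract), so `ker φ` is projective by induction, hence so is `M`. -/
theorem projective_of_gen_zero (GA : GrAlg k A) :
    ∀ (d : ℕ) {M : Type u} [AddCommGroup M] [Module A M] [Module k M] [IsScalarTower k A M]
      [Module.Finite A M] (G : Gr k M), IsMod GA G →
      Submodule.span A (G.piece 0 : Set M) = ⊤ → Module.finrank k M ≤ d →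
      (∀ i, 1 ≤ i → i ≤ 2 * GA.gr.top + 1 →
        ∀ e : Ext (ModuleCat.of A M) (ModuleCat.of A M) i, e = 0) →
      (∀ i, 1 ≤ i → i ≤ 2 * GA.gr.top + 1 →
        ∀ e : Ext (ModuleCat.of A M) (ModuleCat.of A A) i, e = 0) →
      Module.Projective A M := by
  intro d M _ _ _ _ _ G hG hgen hd hMM hMA
  exact projective_of_gen_zero_aux GA (d + 1) G hG hgen (Nat.lt_succ_of_le hd) hMM hMA

end Vale.Agent.Lib.P195G
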