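import Vale.Agent.Lib.P195G.Split
import Vale.Agent.Lib.P195.Core

/-! From Mathlib's graded structures to `Gr`, and the final statement along a minimal resolution. -/

set_option linter.style.haveILetI false
set_option linter.unusedVariables false

open CategoryTheory Abelian

namespace Vale.Agent.Lib.P195G

universe u v

variable {k : Type v} [Field k] {A : Type u} [Ring A] [Nontrivial A] [Algebra k A]
  [FiniteDimensional k A]

/-- The projection of a decomposition onto its piece of degree `e`, as a linear map. -/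
noncomputable def dProj {X : Type u} [AddCommGroup X] [Module k X] (ℳ : ℕ → Submodule k X)
    [DirectSum.Decomposition ℳ] (e : ℕ) : X →ₗ[k] X :=
  (ℳ e).subtype ∘ₗ DirectSum.component k ℕ (fun i => ℳ i) e ∘ₗ
    (DirectSum.decomposeLinearEquiv ℳ).toLinearMap

lemma dProj_apply {X : Type u} [AddCommGroup X] [Module k X] (ℳ : ℕ → Submodule k X)
    [DirectSum.Decomposition ℳ] (e : ℕ) (x : X) :
    dProj ℳ e x = ((DirectSum.decompose ℳ x) e : X) := rfl

lemma dProj_mem {X : Type u} [AddCommGroup X] [Module k X] (ℳ : ℕ → Submodule k X)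
    [DirectSum.Decomposition ℳ] (e : ℕ) (x : X) : dProj ℳ e x ∈ ℳ e :=
  ((DirectSum.decompose ℳ x) e).2

lemma dProj_same {X : Type u} [AddCommGroup X] [Module k X] (ℳ : ℕ → Submodule k X)
    [DirectSum.Decomposition ℳ] {e : ℕ} {x : X} (hx : x ∈ ℳ e) : dProj ℳ e x = x :=
  DirectSum.decompose_of_mem_same ℳ hx

/-- A decomposition with finitely many nonzero pieces, as a `Gr`. -/
noncomputable def grOfDecomp {X : Type u} [AddCommGroup X] [Module k X] (ℳ : ℕ → Submodule k X)
    [DirectSum.Decomposition ℳ] (top : ℕ) (htop : ∀ e, top < e → ℳ e = ⊥) : Gr k X where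
  proj e := dProj ℳ e
  top := top
  proj_zero e he := by
    ext x
    have h := dProj_mem ℳ e x
    rw [htop e he, Submodule.mem_bot] at h
    simpa using h
  proj_proj e x := dProj_same ℳ (dProj_mem ℳ e x)
  proj_ne e e' x hne := DirectSum.decompose_of_mem_ne ℳ (dProj_mem ℳ e' x) (Ne.symm hne)
  sum_proj x := by
    classical
    conv_rhs => rw [← DirectSum.sum_support_decompose ℳ x]
    symm
    apply Finset.sum_subset
    · intro i hi
      rw [Finset.mem_range]
      by_contra hlt
      have hb : ℳ i = ⊥ := htop i (by omega)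
      have h2 : ((DirectSum.decompose ℳ x) i : X) ∈ ℳ i := ((DirectSum.decompose ℳ x) i).2
      have h2' : ∀ {S : Submodule k X} {y : X}, S = ⊥ → y ∈ S → y = 0 := by
        intro S y hS hy
        subst hS
        simpa using hy
      have h3 : (DirectSum.decompose ℳ x) i = 0 := Subtype.ext (h2' hb h2)
      exact (DFinsupp.mem_support_iff.1 hi) h3
    · intro i _ hi
      have h3 : (DirectSum.decompose ℳ x) i = 0 := by
        simpa using hi
      simp [h3]

lemma mem_piece_grOfDecomp {X : Type u} [AddCommGroup X] [Module k X] (ℳ : ℕ → Submodule k X)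
    [DirectSum.Decomposition ℳ] (top : ℕ) (htop : ∀ e, top < e → ℳ e = ⊥) (e : ℕ) (x : X) :
    x ∈ (grOfDecomp ℳ top htop).piece e ↔ x ∈ ℳ e := by
  constructor
  · rintro ⟨y, rfl⟩
    exact dProj_mem ℳ e y
  · intro hx
    exact ⟨x, dProj_same ℳ hx⟩

lemma exists_top_of_finite {X : Type u} [AddCommGroup X] [Module k X] [Module.Finite k X]
    (ℳ : ℕ → Submodule k X) [DirectSum.Decomposition ℳ] : ∃ N : ℕ, ∀ e, N < e → ℳ e = ⊥ := by
  classical
  obtain ⟨S, hS⟩ := (Module.Finite.fg_top : (⊤ : Submodule k X).FG)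
  refine ⟨S.sup (fun m => (DirectSum.decompose ℳ m).support.sup id), fun e he => ?_⟩
  have hzero : dProj ℳ e = 0 := by
    apply LinearMap.ext_on hS
    intro m hm
    by_contra hne
    have hne' : (DirectSum.decompose ℳ m) e ≠ 0 := by
      intro h0
      apply hne
      simp [dProj_apply, h0]
    have h1 : e ∈ (DirectSum.decompose ℳ m).support := DFinsupp.mem_support_iff.2 hne'
    have h2 : e ≤ (DirectSum.decompose ℳ m).support.sup id := Finset.le_sup (f := id) h1
    have h3 : (DirectSum.decompose ℳ m).support.sup id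
        ≤ S.sup (fun m => (DirectSum.decompose ℳ m).support.sup id) :=
      Finset.le_sup (f := fun m => (DirectSum.decompose ℳ m).support.sup id) hm
    omega
  rw [eq_bot_iff]
  intro x hx
  rw [Submodule.mem_bot, ← dProj_same ℳ hx, hzero]
  simp

/-- JOB G6. From Mathlib's graded structures: `GradedAlgebra 𝒜` with `𝒜 0 = k` gives a `GrAlg` (take
`top` = the largest degree with `𝒜 top ≠ ⊥`, which exists since `A` is finite-dimensional and
nonzero) and a graded module gives a `Gr`. Then `projective_of_gen_zero` (with `d = finrank k M`)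
gives the conclusion; the range `2 * top + 1 ≤ 2 * s + 1` is covered by the hypotheses. -/
theorem projective_of_graded (𝒜 : ℕ → Submodule k A) [GradedAlgebra 𝒜]
    (h0 : ∀ a ∈ 𝒜 0, ∃ c : k, a = algebraMap k A c) (s : ℕ) (hs : ∀ i, s < i → 𝒜 i = ⊥)
    {M : Type u} [AddCommGroup M] [Module A M] [Module k M] [IsScalarTower k A M]
    [Module.Finite A M] (ℳ : ℕ → Submodule k M) [DirectSum.Decomposition ℳ]
    [SetLike.GradedSMul 𝒜 ℳ] (hgen : Submodule.span A (ℳ 0 : Set M) = ⊤)
    (hMM : ∀ i, 1 ≤ i → i ≤ 2 * s + 1 → ∀ e : Ext (ModuleCat.of A M) (ModuleCat.of A M) i, e = 0)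
    (hMA : ∀ i, 1 ≤ i → i ≤ 2 * s + 1 → ∀ e : Ext (ModuleCat.of A M) (ModuleCat.of A A) i, e = 0) :
    Module.Projective A M := by
  classical
  haveI : Module.Finite k M := Module.Finite.trans A M
  let T := (Finset.range (s + 1)).filter (fun i => 𝒜 i ≠ ⊥)
  have h1 : (1 : A) ∈ 𝒜 0 := SetLike.GradedOne.one_mem
  have hT : T.Nonempty := by
    refine ⟨0, ?_⟩
    simp only [T, Finset.mem_filter, Finset.mem_range]
    refine ⟨by omega, fun h => ?_⟩
    rw [h, Submodule.mem_bot] at h1
    exact one_ne_zero h1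
  let top := T.max' hT
  have htop_mem : top ∈ T := T.max'_mem hT
  have htop_mem' := htop_mem
  simp only [T, Finset.mem_filter, Finset.mem_range] at htop_mem'
  have htop_le : top ≤ s := by omega
  have htop_ne : 𝒜 top ≠ ⊥ := htop_mem'.2
  have htop : ∀ e, top < e → 𝒜 e = ⊥ := by
    intro e he
    by_contra hne
    by_cases hes : s < e
    · exact hne (hs e hes)
    · have hmem : e ∈ T := by
        simp only [T, Finset.mem_filter, Finset.mem_range]
        exact ⟨by omega, hne⟩
      have := T.le_max' e hmem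
      omega
  let GA : GrAlg k A :=
    { gr := grOfDecomp 𝒜 top htop
      one_mem := (mem_piece_grOfDecomp 𝒜 top htop 0 1).2 h1
      mul_mem := by
        intro i j a b ha hb
        rw [mem_piece_grOfDecomp] at ha hb ⊢
        exact SetLike.GradedMul.mul_mem ha hb
      conn := by
        intro a ha
        rw [mem_piece_grOfDecomp] at ha
        exact h0 a ha
      top_ne := by
        intro hbot
        apply htop_ne
        rw [eq_bot_iff]
        intro x hx
        have hx' : x ∈ (grOfDecomp 𝒜 top htop).piece top :=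
          (mem_piece_grOfDecomp 𝒜 top htop top x).2 hx
        have hbot' : (grOfDecomp 𝒜 top htop).piece top = ⊥ := hbot
        rw [hbot'] at hx'
        exact hx' }
  obtain ⟨N, hN⟩ := exists_top_of_finite ℳ
  let G : Gr k M := grOfDecomp ℳ N hN
  have hG : IsMod GA G := by
    intro i e a x ha hx
    have ha' : a ∈ 𝒜 i := (mem_piece_grOfDecomp 𝒜 top htop i a).1 ha
    have hx' : x ∈ ℳ e := (mem_piece_grOfDecomp ℳ N hN e x).1 hx
    exact (mem_piece_grOfDecomp ℳ N hN (i + e) (a • x)).2 (SetLike.GradedSMul.smul_mem ha' hx')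
  have hgen' : Submodule.span A (G.piece 0 : Set M) = ⊤ := by
    have hset : (G.piece 0 : Set M) = (ℳ 0 : Set M) := by
      ext x
      exact mem_piece_grOfDecomp ℳ N hN 0 x
    rw [hset]
    exact hgen
  have htopA : GA.gr.top = top := rfl
  refine projective_of_gen_zero GA (Module.finrank k M) G hG hgen' le_rfl ?_ ?_
  · intro i hi1 hi2
    exact hMM i hi1 (by rw [htopA] at hi2; omega)
  · intro i hi1 hi2
    exact hMA i hi1 (by rw [htopA] at hi2; omega)

open Vale.Agent.Lib.P195 in
/-- JOB G7. Along a minimal resolution `S` of `M = S.X 0`: if the syzygy `S.X n` carries a grading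
(over the grading `𝒜` of `A`) generated in degree `0`, and `Ext^i(M, M) = 0` for `1 ≤ i ≤ 2 s + 1`,
`Ext^i(M, A) = 0` for `1 ≤ i ≤ 2 s + 1 + n`, then `M` is projective. Proof: `Ext^j(X_n, A) = Ext^(j+n)(M, A)`
and `Ext^j(X_n, X_n) = Ext^j(M, M)` for `1 ≤ j ≤ 2 s + 1` by dimension shifting on both sides
(`ext_shift_first`, `ext_shift_second`, `ext_proj_vanish`, or the lemmas on `Syz` in
`Vale.Agent.Lib.P195.Core` and `Vale.Agent.Lib.P195.Syz`); `projective_of_graded` makes `X_n` projective;
then `X_(n+1)` is zero by minimality (`Syz.subsingleton_of_projective`), and `Syz.projective_of_vanishing`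
(with `Ext^i(M, A) = 0`) gives that `X_0` is projective. -/
theorem projective_of_graded_syzygy (𝒜 : ℕ → Submodule k A) [GradedAlgebra 𝒜]
    (h0 : ∀ a ∈ 𝒜 0, ∃ c : k, a = algebraMap k A c) (s : ℕ) (hs : ∀ i, s < i → 𝒜 i = ⊥)
    (S : Syz A) (n : ℕ) [Module k (S.X n)] [IsScalarTower k A (S.X n)]
    (ℳ : ℕ → Submodule k (S.X n)) [DirectSum.Decomposition ℳ]
    [SetLike.GradedSMul 𝒜 ℳ] (hgen : Submodule.span A (ℳ 0 : Set (S.X n)) = ⊤)
    (hMM : ∀ i, 1 ≤ i → i ≤ 2 * s + 1 → ∀ e : Ext (S.X 0) (S.X 0) i, e = 0)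
    (hMA : ∀ i, 1 ≤ i → i ≤ 2 * s + 1 + n → ∀ e : Ext (S.X 0) (ModuleCat.of A A) i, e = 0) :
    Module.Projective A (S.X 0) := by
  have hXX : ∀ i, 1 ≤ i → i ≤ 2 * s + 1 →
      ∀ e : Ext (ModuleCat.of A (S.X n)) (ModuleCat.of A (S.X n)) i, e = 0 := by
    intro i hi1 hi2 e
    obtain ⟨j, rfl⟩ : ∃ j, i = j + 1 := ⟨i - 1, by omega⟩
    exact S.ext_tri_gen 0 j (fun e' => hMM _ (by omega) (by omega) e') (2 * s + 1 + n) hMA n
      (by omega) e
  have hXA : ∀ i, 1 ≤ i → i ≤ 2 * s + 1 →
      ∀ e : Ext (ModuleCat.of A (S.X n)) (ModuleCat.of A A) i, e = 0 := by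
    intro i hi1 hi2 e
    obtain ⟨j, rfl⟩ : ∃ j, i = j + 1 := ⟨i - 1, by omega⟩
    exact S.ext_first_iter (ModuleCat.of A A) n j (fun e' => hMA _ (by omega) (by omega) e') e
  have hP : Module.Projective A (S.X n) :=
    projective_of_graded 𝒜 h0 s hs ℳ hgen hXX hXA
  obtain _ | m := n
  · exact hP
  · haveI : Module.Projective A (S.X (m + 1)) := hP
    have hsub : Subsingleton (S.X (m + 1)) := by
      refine S.subsingleton_of_projective m ?_
      intro e
      exact S.ext_first_iter (ModuleCat.of A A) m 0 (fun e' => hMA _ (by omega) (by omega) e') e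
    exact S.projective_of_vanishing (2 * s + 1 + (m + 1)) hMA m (by omega) hsub

end Vale.Agent.Lib.P195G
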